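/-
R175/Unf/Defs: the unfolding datum (block UNF of row 175, owner helper81).
-/
import Crest.Agent.R175.P.Defs
import Crest.Agent.R175.Cox.Mats

set_option autoImplicit false
set_option linter.unusedSectionVars false

open Finset Crest.GroupTheory

noncomputable section

namespace Crest.Agent.R175.Unf

open Crest.Agent.R175.P Crest.Agent.R175.Cox

variable {S : Type} [Fintype S] [DecidableEq S]

/-- an unfolding of the Coxeter diagram: vertices `S × F`, edge multiplicities `nb`, positive weights `d`. -/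
structure Dat (M : CoxeterMatrix S) where
  F : Type
  [fF : Fintype F]
  [dF : DecidableEq F]
  [nF : Nonempty F]
  d : F → ℝ
  d_pos : ∀ a, 0 < d a
  nb : S × F → S × F → ℕ
  symm : ∀ i j, nb i j = nb j i
  diag : ∀ i j, i.1 = j.1 → nb i j = 0
  le2 : ∀ i j, nb i j ≤ 2
  le1 : ∀ i j, M.M i.1 j.1 ≠ 0 → nb i j ≤ 1
  eig : ∀ s t a, ∑ b, (nb (s, a) (t, b) : ℝ) * d b = adj M s t * d a

attribute [instance] Dat.fF Dat.dF Dat.nF

/-- the framed graph of an unfolding: `ι` = unfolded vertices, `κ` = framing vertices. -/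
structure Fr {M : CoxeterMatrix S} (D : Dat M) where
  G : Gr
  ι : S × D.F → G.I
  κ : S × D.F → G.I
  ι_mem : ∀ i, ι i ∈ G.J
  κ_nmem : ∀ i, κ i ∉ G.J
  ι_inj : Function.Injective ι
  κ_inj : Function.Injective κ
  cov : ∀ j, (∃ i, j = ι i) ∨ ∃ i, j = κ i
  ne_ι : ∀ i j, G.ne (ι i) (ι j) = D.nb i j
  ne_κ : ∀ i j, G.ne (ι i) (κ j) = if i = j then 1 else 0
  sum_ne : ∀ i (φ : G.I → ℕ), ∑ j, G.ne (ι i) j * φ j = ∑ j, D.nb i j * φ (ι j) + φ (κ i)

variable {M : CoxeterMatrix S}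

namespace Dat
variable (D : Dat M)

/-- the Coxeter matrix of the unfolded diagram -/
def Mt : CoxeterMatrix (S × D.F) where
  M := Matrix.of fun i j => if i = j then 1 else if D.nb i j = 0 then 2 else if D.nb i j = 1 then 3 else 0
  isSymm := by
    ext i j
    simp only [Matrix.transpose_apply, Matrix.of_apply, D.symm j i, eq_comm (a := j)]
  diagonal := by simp
  off_diagonal := by
    intro i j h
    simp only [Matrix.of_apply, h, if_false]
    split_ifs <;> simp

theorem Mt_apply (i j : S × D.F) :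
    D.Mt i j = if i = j then 1 else if D.nb i j = 0 then 2 else if D.nb i j = 1 then 3 else 0 := rfl

/-- the unfolded Coxeter system -/
abbrev cs : CoxeterSystem D.Mt D.Mt.Group := D.Mt.toCoxeterSystem

/-- the letters over `s` -/
def L (s : S) : List (S × D.F) := (univ : Finset D.F).toList.map fun a => (s, a)

theorem mem_L {s : S} {i : S × D.F} : i ∈ D.L s ↔ i.1 = s := by
  obtain ⟨t, a⟩ := i
  simp [L, eq_comm]

theorem nodup_L (s : S) : (D.L s).Nodup :=
  (Finset.nodup_toList _).map fun _ _ h => (Prod.mk.inj h).2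

theorem length_L (s : S) : (D.L s).length = Fintype.card D.F := by simp [L]

/-- the unfolded word -/
def wd (ω : List S) : List (S × D.F) := ω.flatMap D.L

theorem prod_wd {G : Type*} [Monoid G] (f : S × D.F → G) (ω : List S) :
    ((D.wd ω).map f).prod = (ω.map fun s => ((D.L s).map f).prod).prod := by
  induction ω with
  | nil => simp [wd]
  | cons s ω ih => simpa [wd] using congrArg (_ * ·) ih

end Dat

namespace Fr
variable {D : Dat M} (Γ : Fr D)

/-- the unfolded vertices over `T` -/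
def up (T : Finset S) : Set Γ.G.I := Γ.ι '' {i | i.1 ∈ T}

theorem up_sub (T : Finset S) : Γ.up T ⊆ Γ.G.J := by
  rintro _ ⟨i, -, rfl⟩; exact Γ.ι_mem i

theorem mem_up {T : Finset S} {i : S × D.F} : Γ.ι i ∈ Γ.up T ↔ i.1 ∈ T := Γ.ι_inj.mem_set_image

theorem up_mono {T T' : Finset S} (h : T ⊆ T') : Γ.up T ⊆ Γ.up T' := Set.image_mono fun _ hi => h hi

/-- the unfolded generator -/
def sg (Q : SL Γ.G) (s : S) : Equiv.Perm Q.X := ((D.L s).map fun i => Q.T (Γ.ι i)).prod

end Fr

/-! ### generic facts on `SL` -/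

section Gen
variable {G : Gr} (Q : SL G)

theorem le_mono {U U' : Set G.I} (h : U ⊆ U') {m : ℤ} {x : Q.X} (hx : G.Le Q.h U' m x) : G.Le Q.h U m x :=
  fun n hn i hi => hx n hn i (h hi)

theorem le_single {U : Set G.I} {i : G.I} (h : i ∈ U) {m : ℤ} {x : Q.X} (hx : G.Le Q.h U m x) :
    G.Le Q.h {i} m x := le_mono Q (Set.singleton_subset_iff.2 h) hx

theorem loc_inv {i : G.I} (hi : i ∈ G.J) {j : G.I} (hj : j ≠ i) (x : Q.X) (n : ℤ) :
    Q.h ((Q.T i)⁻¹ x) n j = Q.h x n j := by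
  rw [← Q.loc i hi j hj ((Q.T i)⁻¹ x)]; simp

/-- a change at the single vertex `i` -/
theorem le_of_loc {U : Set G.I} {m : ℤ} {x y : Q.X} (i : G.I) (hx : G.Le Q.h U m x)
    (hl : ∀ j, j ≠ i → ∀ n, Q.h y n j = Q.h x n j) (h0 : ∀ n, m < n → Q.h y n i = 0) : G.Le Q.h U m y := by
  have key : ∀ n, m < n → ∀ j, Q.h x n j = 0 → Q.h y n j = 0 := fun n hn j hj => by
    by_cases e : j = i
    · rw [e]; exact h0 n hn
    · rw [hl j e, hj]
  exact fun n hn j hj => ⟨key n hn _ (hx n hn j hj).1, fun k hk => key n hn _ ((hx n hn j hj).2 k hk)⟩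

theorem le_T {U : Set G.I} {m : ℤ} {x : Q.X} {i : G.I} (hi : i ∈ G.J) (hx : G.Le Q.h U m x)
    (h0 : ∀ n, m < n → Q.h (Q.T i x) n i = 0) : G.Le Q.h U m (Q.T i x) :=
  le_of_loc Q i hx (fun j hj n => Q.loc i hi j hj x n) h0

theorem le_down {U : Set G.I} (hU : U ⊆ G.J) {m : ℤ} {x : Q.X} {i : G.I} (hi : i ∈ U) (hx : G.Le Q.h U m x) :
    G.Le Q.h U m ((Q.T i)⁻¹ x) :=
  le_of_loc Q i hx (fun _ hj n => loc_inv Q (hU hi) hj x n) (Q.down i (hU hi) m x (le_single Q hi hx)).1

/-- products of down moves in `U` -/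
def Dn (U : Set G.I) : Submonoid (Equiv.Perm Q.X) := Submonoid.closure ((fun i => (Q.T i)⁻¹) '' U)

theorem inv_prod_mem_Dn {U : Set G.I} {α : Type} (e : α → G.I) (l : List α) (hl : ∀ a ∈ l, e a ∈ U) :
    ((l.map fun a => Q.T (e a)).prod)⁻¹ ∈ Dn Q U := by
  induction l with
  | nil => simp
  | cons a l ih =>
    rw [List.map_cons, List.prod_cons, mul_inv_rev]
    exact mul_mem (ih fun b hb => hl b (by simp [hb])) (Submonoid.subset_closure ⟨e a, hl a (by simp), rfl⟩)

theorem dn_le {U : Set G.I} (hU : U ⊆ G.J) {m : ℤ} {g : Equiv.Perm Q.X} (hg : g ∈ Dn Q U) :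
    ∀ x, G.Le Q.h U m x → G.Le Q.h U m (g x) := by
  induction hg using Submonoid.closure_induction with
  | mem g hg => obtain ⟨i, hi, rfl⟩ := hg; exact fun x hx => le_down Q hU hi hx
  | one => exact fun x hx => hx
  | mul a b _ _ ha hb => exact fun x hx => ha _ (hb x hx)

theorem dn_sur {U : Set G.I} (hU : U ⊆ G.J) {m : ℤ} {g : Equiv.Perm Q.X} (hg : g ∈ Dn Q U) :
    ∀ x y, G.Le Q.h U m x → G.Le Q.h U m y → Q.sur m x y → Q.sur m (g x) (g y) := by
  induction hg using Submonoid.closure_induction with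
  | mem g hg =>
    obtain ⟨i, hi, rfl⟩ := hg
    exact fun x y hx hy h => Q.sur_down i (hU hi) m x y (le_single Q hi hx) (le_single Q hi hy) h
  | one => exact fun x y _ _ h => h
  | mul a b _ hb' ha hb => exact fun x y hx hy h => ha _ _ (dn_le Q hU hb' x hx) (dn_le Q hU hb' y hy) (hb x y hx hy h)

end Gen

end Crest.Agent.R175.Unf
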