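/-
R175/Unf/Cox: reduced words unfold to reduced words; the unfolded generators satisfy the braid relations.
-/
import Crest.Agent.R175.Unf.Defs

set_option autoImplicit false
set_option linter.unusedSectionVars false

open Finset Crest.GroupTheory

noncomputable section

namespace Crest.Agent.R175.Unf

open Crest.Agent.R175.P Crest.Agent.R175.Cox Crest.Agent.R61

variable {S : Type} [Fintype S] [DecidableEq S] {M : CoxeterMatrix S} (D : Dat M)

/-- the folding map -/
def fo : V (S × D.F) →ₗ[ℝ] V S := Finsupp.linearCombination ℝ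
  (Sum.elim (fun i => Finsupp.single (Sum.inl i.1) (D.d i.2)) fun i => Finsupp.single (Sum.inr i.1) (D.d i.2))

theorem fo_al (i : S × D.F) : fo D (al i) = D.d i.2 • al i.1 := by simp [fo, al]

theorem fo_nonneg {v : V (S × D.F)} (hv : 0 ≤ v) : 0 ≤ fo D v := by
  rw [fo, Finsupp.linearCombination_apply, Finsupp.sum]
  refine Finset.sum_nonneg fun a _ => smul_nonneg (hv a) ?_
  rcases a with i | i <;> exact Finsupp.single_nonneg.2 (D.d_pos _).le

theorem fo_nonpos {v : V (S × D.F)} (hv : v ≤ 0) : fo D v ≤ 0 := by
  simpa using fo_nonneg D (neg_nonneg.2 hv)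

theorem cos_Mt {i j : S × D.F} (h : i ≠ j) : Real.cos (Real.pi / (D.Mt i j : ℝ)) = D.nb i j / 2 := by
  rw [D.Mt_apply, if_neg h]
  have := D.le2 i j
  split_ifs with h0 h1
  · simp [h0]
  · simp [h1]
  · have : D.nb i j = 2 := by omega
    simp [this]

theorem form_sum (u : S) (v : V (S × D.F)) :
    ∑ a, D.d a * form D.Mt (al (u, a)) v = form M (al u) (fo D v) := by
  induction v using Finsupp.induction_linear with
  | zero => simp
  | add f g hf hg => simp [← hf, ← hg, mul_add, Finset.sum_add_distrib]
  | single c y =>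
    rcases c with ⟨t, b⟩ | ⟨t, b⟩
    · simp only [al, fo, form_single, Finsupp.linearCombination_single, Sum.elim_inl, Finsupp.smul_single, kap,
        smul_eq_mul, one_mul]
      by_cases h : u = t
      · subst h
        rw [Finset.sum_eq_single b]
        · simp; ring
        · intro a _ ha
          rw [cos_Mt D (fun e => ha (Prod.mk.inj e).2), D.diag (u, a) (u, b) rfl]; simp
        · simp
      · have e := D.eig t u b
        rw [adj, if_neg (Ne.symm h), M.symmetric t u] at e
        simp only [fun a => cos_Mt D (i := (u, a)) (j := (t, b)) (fun e => h (Prod.mk.inj e).1),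
          fun a => D.symm (u, a) (t, b)]
        have : ∑ a, D.d a * (y * -((D.nb (t, b) (u, a) : ℝ) / 2)) = -(y / 2) * ∑ a, D.nb (t, b) (u, a) * D.d a := by
          rw [Finset.mul_sum]; exact Finset.sum_congr rfl fun a _ => by ring
        rw [this, e]; ring
    · simp only [al, fo, form_single, Finsupp.linearCombination_single, Sum.elim_inr, Finsupp.smul_single, kap,
        smul_eq_mul, one_mul]
      by_cases h : u = t
      · subst h; simp [mul_comm]
      · simp [h]

theorem rep_list (u : S) (v : V (S × D.F)) (l : List D.F) (hl : l.Nodup) :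
    rep D.cs (D.cs.wordProd (l.map fun a => (u, a))) v =
      v - ∑ a ∈ l.toFinset, (2 * form D.Mt (al (u, a)) v) • al (u, a) := by
  induction l with
  | nil => simp
  | cons a l ih =>
    obtain ⟨h1, h2⟩ := List.nodup_cons.1 hl
    rw [List.map_cons, D.cs.wordProd_cons, rep_mul, ih h2, rep_simple, List.toFinset_cons,
      Finset.sum_insert (by simpa using h1), map_sub, map_sum,
      Finset.sum_eq_zero (f := fun x => form D.Mt (al (u, a)) _), sub_zero]
    · abel
    · intro b hb
      have hab : a ≠ b := by rintro rfl; exact h1 (by simpa using hb)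
      rw [map_smul, form_al_al, cos_Mt D (fun e => hab (Prod.mk.inj e).2), D.diag (u, a) (u, b) rfl]; simp

theorem fo_rep (ω : List S) (v : V (S × D.F)) :
    fo D (rep D.cs (D.cs.wordProd (D.wd ω)) v) = rep M.toCoxeterSystem (M.toCoxeterSystem.wordProd ω) (fo D v) := by
  induction ω with
  | nil => simp [Dat.wd]
  | cons u ω ih =>
    rw [Dat.wd, List.flatMap_cons, D.cs.wordProd_append, rep_mul, Dat.L, rep_list D u _ _ (Finset.nodup_toList _),
      CoxeterSystem.wordProd_cons, rep_mul, rep_simple, ← ih, ← form_sum, Finset.toList_toFinset, map_sub, map_sum,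
      Finset.mul_sum, Finset.sum_smul, Dat.wd]
    congr 1
    refine Finset.sum_congr rfl fun a _ => ?_
    rw [map_smul, fo_al, smul_smul]
    congr 1
    ring

theorem up_wd {ω : List S} {i : S × D.F} (h : M.toCoxeterSystem.length (M.toCoxeterSystem.wordProd ω) <
    M.toCoxeterSystem.length (M.toCoxeterSystem.wordProd ω * M.toCoxeterSystem.simple i.1)) :
    D.cs.length (D.cs.wordProd (D.wd ω)) < D.cs.length (D.cs.wordProd (D.wd ω) * D.cs.simple i) := by
  refine (up_or_down' D.cs _ i).resolve_right fun h' => ?_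
  have h1 := fo_nonpos D ((down_iff_al D.cs _ i).1 h')
  rw [fo_rep, fo_al, map_smul] at h1
  exact lt_asymm h ((down_iff_al _ _ _).2 fun a => nonpos_of_mul_nonpos_right (h1 a) (D.d_pos _))

theorem down_wd {ω : List S} {i : S × D.F}
    (h : M.toCoxeterSystem.length (M.toCoxeterSystem.wordProd ω * M.toCoxeterSystem.simple i.1) <
      M.toCoxeterSystem.length (M.toCoxeterSystem.wordProd ω)) :
    D.cs.length (D.cs.wordProd (D.wd ω) * D.cs.simple i) < D.cs.length (D.cs.wordProd (D.wd ω)) := by
  refine (up_or_down' D.cs _ i).resolve_left fun h' => ?_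
  have h1 := fo_nonneg D ((up_iff_al D.cs _ i).1 h')
  rw [fo_rep, fo_al, map_smul] at h1
  exact lt_asymm h ((up_iff_al _ _ _).2 fun a => nonneg_of_mul_nonneg_right (h1 a) (D.d_pos _))

theorem red_nodup {B W : Type} [Group W] {N : CoxeterMatrix B} (cs : CoxeterSystem N W) (ω : List B)
    (h : ω.Nodup) : cs.IsReduced ω := by
  induction ω using List.reverseRecOn with
  | nil => simp [CoxeterSystem.IsReduced]
  | append_singleton ω i ih =>
    obtain ⟨h1, -, h3⟩ := List.nodup_append.1 h
    refine isReduced_concat cs (ih h1) ((up_or_down' cs _ i).resolve_right fun h' => ?_)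
    exact h3 i (mem_of_down cs (wordProd_mem_par cs (U := {j | j ∈ ω}) fun _ h => h) h') i (by simp) rfl

theorem red (ω : List S) (hω : M.toCoxeterSystem.IsReduced ω) : D.cs.IsReduced (D.wd ω) := by
  induction ω using List.reverseRecOn with
  | nil => simp [CoxeterSystem.IsReduced, Dat.wd]
  | append_singleton ω u ih =>
    obtain ⟨h1, h2⟩ := IsReduced.of_concat _ hω
    rw [Dat.wd, List.flatMap_append, List.flatMap_singleton]
    refine isReduced_append D.cs (ih h1) (red_nodup _ _ (D.nodup_L u)) ?_
    refine length_mul_of_min D.cs (U := {i | i.1 = u}) (fun i hi => up_wd D ?_)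
      (wordProd_mem_par _ fun i hi => D.mem_L.1 hi)
    rw [show i.1 = u from hi, h2]; omega

theorem mem_wd {ω : List S} {i : S × D.F} : i ∈ D.wd ω ↔ i.1 ∈ ω := by simp [Dat.wd, D.mem_L]

theorem braid_wd {G : Type*} [Monoid G] {f : S × D.F → G} (hf : Braid D.Mt f) :
    Braid M fun s => ((D.L s).map f).prod := by
  refine braid_of_ne fun s t hst h0 => ?_
  have key : ∀ s t, s ≠ t → M s t ≠ 0 → IsLong D.cs {i | i.1 ∈ ({s, t} : Set S)}
      (D.cs.wordProd (D.wd (CoxeterSystem.alternatingWord s t (M s t)))) := fun s t hst h0 =>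
    ⟨wordProd_mem_par _ fun i hi => alt_mem s t _ _ ((mem_wd D).1 hi),
      fun i hi => down_wd D ((isLong_alt M.toCoxeterSystem hst h0).2 _ hi)⟩
  have h1 := key s t hst h0
  have h2 := key t s hst.symm (by rwa [M.symmetric])
  rw [Set.pair_comm, M.symmetric t s] at h2
  have h3 := matsumoto D.cs hf (red D _ (isReduced_alt _ hst (M s t) fun _ => le_rfl))
    (red D _ (isReduced_alt _ hst.symm (M s t) fun _ => (M.symmetric s t).le)) (h2.unique h1)
  rw [D.prod_wd, D.prod_wd, prod_alt, prod_alt] at h3
  split_ifs at h3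
  · exact h3
  · exact h3.symm

end Crest.Agent.R175.Unf
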