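/-
R175/Unf/Act: the unfolded generators acting on the simply-laced model.
-/
import Crest.Agent.R175.Unf.Cox

set_option autoImplicit false
set_option linter.unusedSectionVars false

open Finset Crest.GroupTheory

noncomputable section

namespace Crest.Agent.R175.Unf

open Crest.Agent.R175.P Crest.Agent.R175.Cox

theorem prod_split {α H : Type*} [BEq α] [LawfulBEq α] [Monoid H] (g : α → H) {l : List α}
    (hc : ∀ a ∈ l, ∀ b ∈ l, Commute (g a) (g b)) {a : α} (ha : a ∈ l) :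
    (l.map g).prod = ((l.erase a).map g).prod * g a := by
  have h1 : (l.map g).Perm ((l.erase a ++ [a]).map g) :=
    ((List.perm_cons_erase ha).trans (List.perm_append_singleton _ _).symm).map g
  rw [h1.prod_eq' (List.pairwise_map.2 (List.pairwise_of_forall_mem_list hc))]
  simp

theorem prod_loc {G : Gr} (Q : SL G) {α : Type} (g : α → Equiv.Perm Q.X) {j : G.I} {l : List α}
    (hl : ∀ a ∈ l, ∀ x n, Q.h (g a x) n j = Q.h x n j) (x : Q.X) (n : ℤ) :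
    Q.h ((l.map g).prod x) n j = Q.h x n j := by
  induction l with
  | nil => rfl
  | cons a l ih =>
    rw [List.map_cons, List.prod_cons, Equiv.Perm.mul_apply, hl a (by simp), ih fun b hb => hl b (by simp [hb])]

theorem le_of_zero {G : Gr} (Q : SL G) {U : Set G.I} {m : ℤ} {x y : Q.X} (hx : G.Le Q.h U m x)
    (key : ∀ n, m < n → ∀ j, Q.h x n j = 0 → Q.h y n j = 0) : G.Le Q.h U m y :=
  fun n hn j hj => ⟨key n hn _ (hx n hn j hj).1, fun k hk => key n hn _ ((hx n hn j hj).2 k hk)⟩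

variable {S : Type} [Fintype S] [DecidableEq S] {M : CoxeterMatrix S} {D : Dat M} (Γ : Fr D) (Q : SL Γ.G)

namespace Fr

/-- the unfolded twist -/
abbrev t (i : S × D.F) : Equiv.Perm Q.X := Q.T (Γ.ι i)

theorem comm {i j : S × D.F} (h : D.nb i j = 0) : Commute (Γ.t Q i) (Γ.t Q j) :=
  Q.comm _ (Γ.ι_mem i) _ (Γ.ι_mem j) (by rw [Γ.ne_ι, h])

theorem comm_L {s : S} : ∀ a ∈ D.L s, ∀ b ∈ D.L s, Commute (Γ.t Q a) (Γ.t Q b) := fun _ ha _ hb =>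
  Γ.comm Q (D.diag _ _ ((D.mem_L.1 ha).trans (D.mem_L.1 hb).symm))

theorem braid_t : Braid D.Mt (Γ.t Q) := by
  refine braid_of_ne fun i j hij h0 => ?_
  rw [D.Mt_apply, if_neg hij] at h0 ⊢
  split_ifs at h0 ⊢ with h1 h2
  · simpa [altP] using (Γ.comm Q h1).eq
  · simpa [altP, mul_assoc] using Q.braid _ (Γ.ι_mem i) _ (Γ.ι_mem j) (by rw [Γ.ne_ι, h2])
  · exact absurd rfl h0

theorem sg_inv (s : S) : (Γ.sg Q s)⁻¹ = ((D.L s).map fun i => (Γ.t Q i)⁻¹).prod := by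
  rw [sg, List.prod_inv_reverse, List.map_map]
  refine (List.reverse_perm _).prod_eq' ?_
  rw [List.pairwise_reverse, List.pairwise_map]
  exact List.pairwise_of_forall_mem_list fun a ha b hb => (Γ.comm_L Q b hb a ha).inv_inv

theorem h_t {i : S × D.F} {j : Γ.G.I} (h : j ≠ Γ.ι i) (x : Q.X) (n : ℤ) : Q.h (Γ.t Q i x) n j = Q.h x n j :=
  Q.loc _ (Γ.ι_mem i) j h x n

theorem erase_ne {s : S} {i a : S × D.F} (ha : a ∈ (D.L s).erase i) : Γ.ι i ≠ Γ.ι a := fun e =>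
  ((D.nodup_L s).mem_erase_iff.1 ha).1 (Γ.ι_inj e).symm

theorem h_sg_at (i : S × D.F) (x : Q.X) (n : ℤ) : Q.h (Γ.sg Q i.1 x) n (Γ.ι i) = Q.h (Γ.t Q i x) n (Γ.ι i) := by
  rw [sg, prod_split _ (Γ.comm_L Q) (D.mem_L.2 rfl), Equiv.Perm.mul_apply,
    prod_loc Q _ fun a ha => Γ.h_t Q (Γ.erase_ne ha)]

theorem sg_inv_split (i : S × D.F) :
    (Γ.sg Q i.1)⁻¹ = (((D.L i.1).erase i).map fun i => (Γ.t Q i)⁻¹).prod * (Γ.t Q i)⁻¹ := by
  rw [sg_inv, prod_split _ (fun a ha b hb => (Γ.comm_L Q a ha b hb).inv_inv) (D.mem_L.2 rfl)]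

theorem h_sgi_at (i : S × D.F) (x : Q.X) (n : ℤ) :
    Q.h ((Γ.sg Q i.1)⁻¹ x) n (Γ.ι i) = Q.h ((Γ.t Q i)⁻¹ x) n (Γ.ι i) := by
  rw [sg_inv_split, Equiv.Perm.mul_apply, prod_loc Q _ fun a ha => loc_inv Q (Γ.ι_mem a) (Γ.erase_ne ha)]

theorem h_sg_ne {s : S} {j : Γ.G.I} (h : ∀ a, j ≠ Γ.ι (s, a)) (x : Q.X) (n : ℤ) :
    Q.h (Γ.sg Q s x) n j = Q.h x n j :=
  prod_loc Q _ (fun a ha => Γ.h_t Q (by rw [← D.mem_L.1 ha] at h; exact h a.2)) x n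

theorem sg_inv_mem {T : Finset S} {s : S} (hs : s ∈ T) : (Γ.sg Q s)⁻¹ ∈ Dn Q (Γ.up T) :=
  inv_prod_mem_Dn Q Γ.ι _ fun _ ha => Γ.mem_up.2 (by rwa [D.mem_L.1 ha])

theorem le_of_sg {T : Finset S} {s : S} (hs : s ∈ T) {m : ℤ} {x : Q.X} (h : Γ.G.Le Q.h (Γ.up T) m (Γ.sg Q s x)) :
    Γ.G.Le Q.h (Γ.up T) m x := by
  simpa using dn_le Q (Γ.up_sub T) (Γ.sg_inv_mem Q hs) _ h

theorem alw_of_sg {T : Finset S} {i : S × D.F} (hs : i.1 ∈ T) {m : ℤ} {x : Q.X}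
    (h : Γ.G.Le Q.h (Γ.up T) m (Γ.sg Q i.1 x)) : Γ.G.Le Q.h (Γ.up T) m (Γ.t Q i x) :=
  le_T Q (Γ.ι_mem i) (Γ.le_of_sg Q hs h) fun n hn => by rw [← h_sg_at]; exact (h n hn _ (Γ.mem_up.2 hs)).1

theorem le_sg {U : Set Γ.G.I} {s : S} {m : ℤ} {x : Q.X} (hx : Γ.G.Le Q.h U m x)
    (h : ∀ a, Γ.G.Le Q.h {Γ.ι (s, a)} m (Γ.t Q (s, a) x)) : Γ.G.Le Q.h U m (Γ.sg Q s x) := by
  refine le_of_zero Q hx fun n hn j hj => ?_
  by_cases e : ∀ a, j ≠ Γ.ι (s, a)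
  · rw [Γ.h_sg_ne Q e, hj]
  · push Not at e
    obtain ⟨a, rfl⟩ := e
    rw [Γ.h_sg_at Q (s, a)]
    exact (h a n hn _ rfl).1

/-- all reduced words in an allowed set without double edges are allowed -/
theorem alw {L : Set (S × D.F)} (hL : ∀ i ∈ L, ∀ j ∈ L, D.nb i j ≤ 1) {U : Set Γ.G.I} (hU : ∀ i ∈ L, Γ.ι i ∈ U)
    {m : ℤ} {x : Q.X} (hx : Γ.G.Le Q.h U m x) (ha : ∀ i ∈ L, Γ.G.Le Q.h U m (Γ.t Q i x)) (w : D.Mt.Group)
    (hw : w ∈ par D.cs L) : Γ.G.Le Q.h U m (lft D.cs (Γ.t Q) w x) := by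
  have hf := Γ.braid_t Q
  induction hn : D.cs.length w using Nat.strong_induction_on generalizing w with
  | _ n ih =>
  subst hn
  have IH : ∀ v ∈ par D.cs L, D.cs.length v < D.cs.length w → Γ.G.Le Q.h U m (lft D.cs (Γ.t Q) v x) :=
    fun v hv h => ih _ h v hv rfl
  have mul : ∀ {i v}, i ∈ L → v ∈ par D.cs L → D.cs.simple i * v ∈ par D.cs L :=
    fun hi hv => mul_mem (simple_mem_par _ hi) hv
  by_cases h1 : w = 1
  · rw [h1, lft_one _ hf]; exact hx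
  obtain ⟨i, hi⟩ := D.cs.exists_leftDescent_of_ne_one h1
  rw [CoxeterSystem.IsLeftDescent] at hi
  have hiL := mem_of_downl _ hw hi
  have e1 := lft_of_downl D.cs hf hi
  have H1 := IH _ (mul hiL hw) hi
  have fin : (∀ n, m < n → Q.h (lft D.cs (Γ.t Q) w x) n (Γ.ι i) = 0) → Γ.G.Le Q.h U m (lft D.cs (Γ.t Q) w x) := by
    rw [e1]; exact le_T Q (Γ.ι_mem i) H1
  by_cases h2 : D.cs.simple i * w = 1
  · rw [e1, h2, lft_one _ hf, mul_one]; exact ha i hiL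
  obtain ⟨j, hj⟩ := D.cs.exists_leftDescent_of_ne_one h2
  rw [CoxeterSystem.IsLeftDescent] at hj
  have hjL := mem_of_downl _ (mul hiL hw) hj
  have hij : i ≠ j := by
    rintro rfl
    rw [D.cs.simple_mul_simple_cancel_left] at hj; omega
  by_cases h3 : D.cs.length (D.cs.simple j * w) < D.cs.length w
  · refine fin fun n hn => ?_
    rw [lft_of_downl D.cs hf h3, Equiv.Perm.mul_apply, Γ.h_t Q (Γ.ι_inj.ne hij)]
    exact (IH _ (mul hjL hw) h3 n hn _ (hU i hiL)).1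
  obtain ⟨z, hz⟩ : ∃ z, z = D.cs.simple j * (D.cs.simple i * w) := ⟨_, rfl⟩
  have hzL : z ∈ par D.cs L := hz ▸ mul hjL (mul hiL hw)
  have ew : D.cs.simple i * w = D.cs.simple j * z := by rw [hz, D.cs.simple_mul_simple_cancel_left]
  have ew' : w = D.cs.simple i * (D.cs.simple j * z) := by rw [← ew, D.cs.simple_mul_simple_cancel_left]
  have l1 := downl_succ _ hi
  have l2 := downl_succ _ hj
  rw [← hz] at l2
  have hb := braid_simple D.cs j i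
  have hn1 := hL j hjL i hiL
  rw [D.Mt_apply, if_neg hij.symm] at hb
  by_cases h0 : D.nb j i = 0
  · simp only [h0, if_true, altP, mul_one] at hb
    have : D.cs.simple j * w = D.cs.simple i * z := by
      rw [ew', ← mul_assoc, hb, mul_assoc, D.cs.simple_mul_simple_cancel_left]
    rcases D.cs.length_simple_mul z i with h | h <;> rw [this] at h3 <;> omega
  have h1' : D.nb j i = 1 := by omega
  simp only [h1', one_ne_zero, if_false, if_true, altP, mul_one] at hb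
  rcases upl_or_downl D.cs z i with h4 | h4
  · have l3 := upl_succ _ h4
    have A := IH z hzL (by omega)
    have B := IH _ (mul hiL hzL) (by omega)
    rw [ew, lft_simple_mul _ hf (by rw [← ew]; omega)] at H1 e1
    rw [lft_simple_mul _ hf h4] at B
    have hs : ({Γ.ι j, Γ.ι i} : Set Γ.G.I) ⊆ U := by rintro _ (rfl | rfl); exacts [hU j hjL, hU i hiL]
    have := Q.top3 _ (Γ.ι_mem j) _ (Γ.ι_mem i) (by rw [Γ.ne_ι, h1']) m _ (le_mono Q hs A) (le_mono Q hs H1)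
      (le_mono Q hs B)
    refine fin fun n hn => ?_
    rw [e1]
    exact (this n hn _ (by simp)).1
  · have l3 := downl_succ _ h4
    have : D.cs.simple j * w = D.cs.simple i * (D.cs.simple j * (D.cs.simple i * z)) := by
      rw [ew']; simpa only [mul_assoc] using congrArg (· * z) hb
    rw [this] at h3
    rcases D.cs.length_simple_mul (D.cs.simple j * (D.cs.simple i * z)) i with h | h <;>
      rcases D.cs.length_simple_mul (D.cs.simple i * z) j with h' | h' <;> omega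

/-- folding for the unfolded generator -/
theorem fold_list {U : Set Γ.G.I} (hU : U ⊆ Γ.G.J) {m : ℤ} {x : Q.X} (hx : Γ.G.Le Q.h U m x) (l : List (S × D.F))
    (hl : ∀ i ∈ l, Γ.ι i ∈ U ∧ Γ.G.Le Q.h U m (Γ.t Q i x)) :
    Γ.G.Le Q.h U m ((l.map fun i => (Γ.t Q i)⁻¹).prod x) ∧ Q.sur m ((l.map fun i => (Γ.t Q i)⁻¹).prod x) x := by
  induction l with
  | nil => exact ⟨hx, Q.sur_refl m x⟩
  | cons i l ih =>
    obtain ⟨h1, h2⟩ := ih fun j hj => hl j (by simp [hj])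
    obtain ⟨h3, h4⟩ := hl i (by simp)
    exact ⟨le_down Q hU h3 h1, Q.sur_trans m _ _ _
      (Q.sur_down _ (hU h3) m _ _ (le_single Q h3 h1) (le_single Q h3 hx) h2)
      (Q.fold _ (hU h3) m x (le_single Q h3 hx) (le_single Q h3 h4))⟩

theorem fold_sg {T : Finset S} {s : S} (hs : s ∈ T) {m : ℤ} {x : Q.X} (h : Γ.G.Le Q.h (Γ.up T) m (Γ.sg Q s x)) :
    Q.sur m ((Γ.sg Q s)⁻¹ x) x := by
  rw [sg_inv]
  refine (Γ.fold_list Q (Γ.up_sub T) (Γ.le_of_sg Q hs h) _ fun i hi => ?_).2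
  obtain rfl := D.mem_L.1 hi
  exact ⟨Γ.mem_up.2 hs, Γ.alw_of_sg Q hs h⟩

/-- the hypotheses of `SL.exact` -/
def Ex (i : S × D.F) (m : ℤ) (x : Q.X) : Prop :=
  Γ.G.Le Q.h {Γ.ι i} m x ∧ Γ.G.Le Q.h {Γ.ι i} m (Γ.t Q i x) ∧ Q.h ((Γ.t Q i)⁻¹ x) m (Γ.ι i) = Q.h x m (Γ.ι i) ∧
    2 * Q.h x m (Γ.ι i) = ∑ j, Γ.G.ne (Γ.ι i) j * Q.h x m j

theorem Ex.step {i j : S × D.F} (hij : i ≠ j) (h0 : D.nb i j = 0) {m : ℤ} {x : Q.X} (h : Γ.Ex Q i m x) :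
    Γ.Ex Q i m (Γ.t Q j x) := by
  obtain ⟨h1, h2, h3, h4⟩ := h
  have hc := Γ.comm Q h0
  have e := Γ.ι_inj.ne hij
  have nb : ∀ k, Γ.G.ne (Γ.ι i) k ≠ 0 → k ≠ Γ.ι j := by rintro _ hk rfl; exact hk (by rw [Γ.ne_ι, h0])
  have key : ∀ y, Γ.G.Le Q.h {Γ.ι i} m y → Γ.G.Le Q.h {Γ.ι i} m (Γ.t Q j y) := by
    rintro y hy n hn _ rfl
    exact ⟨by rw [Γ.h_t Q e, (hy n hn _ rfl).1], fun k hk => by rw [Γ.h_t Q (nb k hk), (hy n hn _ rfl).2 k hk]⟩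
  refine ⟨key _ h1, ?_, ?_, ?_⟩
  · rw [← Equiv.Perm.mul_apply, hc.eq]; exact key _ h2
  · rw [← Equiv.Perm.mul_apply, hc.inv_left.eq, Equiv.Perm.mul_apply, Γ.h_t Q e, Γ.h_t Q e, h3]
  · rw [Γ.h_t Q e, h4]
    refine Finset.sum_congr rfl fun k _ => ?_
    by_cases hk : Γ.G.ne (Γ.ι i) k = 0
    · simp [hk]
    · rw [Γ.h_t Q (nb k hk)]

theorem exact_list {m : ℤ} {x : Q.X} {s : S} (hx : ∀ i : S × D.F, i.1 = s → Γ.Ex Q i m x) (l : List (S × D.F))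
    (hl : ∀ i ∈ l, i.1 = s) (hn : l.Nodup) :
    Q.sur m ((l.map (Γ.t Q)).prod x) x ∧ ∀ i : S × D.F, i.1 = s → i ∉ l → Γ.Ex Q i m ((l.map (Γ.t Q)).prod x) := by
  induction l with
  | nil => exact ⟨Q.sur_refl m x, fun i hi _ => hx i hi⟩
  | cons j l ih =>
    obtain ⟨n1, n2⟩ := List.nodup_cons.1 hn
    obtain ⟨h1, h2⟩ := ih (fun i hi => hl i (by simp [hi])) n2
    have hj := hl j (by simp)
    obtain ⟨a, b, c, d⟩ := h2 j hj n1
    refine ⟨Q.sur_trans m _ _ _ (Q.exact _ (Γ.ι_mem j) m _ a b c d) h1, fun i hi hi' => ?_⟩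
    rw [List.mem_cons, not_or] at hi'
    exact Ex.step Γ Q hi'.1 (D.diag _ _ (hi.trans hj.symm)) (h2 i hi hi'.2)

/-- the action of the Artin group -/
def ρ : ArtinGroup M →* Equiv.Perm Q.X := artinLift (braid_wd D (Γ.braid_t Q))

theorem ρ_σ (s : S) : Γ.ρ Q (σ M s) = Γ.sg Q s := artinLift_gen _ s

theorem ρ_inv (g : ArtinGroup M) (x : Q.X) :
    (Q.Red (Γ.ρ Q g x) ↔ Q.Red x) ∧ ∀ n i, Q.h (Γ.ρ Q g x) n (Γ.κ i) = Q.h x n (Γ.κ i) := by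
  let K : Subgroup (Equiv.Perm Q.X) :=
    { carrier := {g | ∀ x, (Q.Red (g x) ↔ Q.Red x) ∧ ∀ n i, Q.h (g x) n (Γ.κ i) = Q.h x n (Γ.κ i)}
      one_mem' := fun x => ⟨Iff.rfl, fun _ _ => rfl⟩
      mul_mem' := fun {a b} ha hb x =>
        ⟨(ha _).1.trans (hb x).1, fun n i => ((ha _).2 n i).trans ((hb x).2 n i)⟩
      inv_mem' := fun {a} ha x => by
        have := ha (a⁻¹ x)
        simp only [Equiv.Perm.coe_inv, Equiv.apply_symm_apply] at this ⊢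
        exact ⟨this.1.symm, fun n i => (this.2 n i).symm⟩ }
  refine PresentedGroup.generated_by _ (K.comap (Γ.ρ Q)) (fun s => ?_) g x
  change Γ.ρ Q (σ M s) ∈ K
  rw [ρ_σ]
  refine list_prod_mem fun g hg => ?_
  obtain ⟨i, -, rfl⟩ := List.mem_map.1 hg
  exact fun x => ⟨Q.red_T _ (Γ.ι_mem i) x, fun n j => Γ.h_t Q (fun e => Γ.κ_nmem j (by rw [e]; exact Γ.ι_mem i)) x n⟩

theorem pos_mem {T : Finset S} {q : ArtinGroup M} (hq : q ∈ Pos M T) : Γ.ρ Q q⁻¹ ∈ Dn Q (Γ.up T) := by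
  induction hq using Submonoid.closure_induction with
  | mem g hg => obtain ⟨s, hs, rfl⟩ := hg; rw [map_inv, ρ_σ]; exact Γ.sg_inv_mem Q hs
  | one => simp
  | mul a b _ _ ha hb => rw [mul_inv_rev, map_mul]; exact mul_mem hb ha

theorem gar {T : Finset S} {Δ : ArtinGroup M} (h : IsGar M T Δ) : Γ.G.Gar Q.T (Γ.up T) (Γ.ρ Q Δ⁻¹) := by
  rintro _ ⟨i, hi, rfl⟩
  obtain ⟨q, hq, rfl⟩ := h i.1 hi
  have h0 : Commute (((D.L i.1).erase i).map fun i => (Γ.t Q i)⁻¹).prod (Γ.t Q i)⁻¹ := by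
    refine Commute.list_prod_left _ _ fun g hg => ?_
    obtain ⟨j, hj, rfl⟩ := List.mem_map.1 hg
    exact (Γ.comm_L Q j (List.mem_of_mem_erase hj) i (D.mem_L.2 rfl)).inv_inv
  have h1 : (((D.L i.1).erase i).map fun i => (Γ.t Q i)⁻¹).prod * Γ.ρ Q q⁻¹ ∈ Dn Q (Γ.up T) := by
    refine mul_mem (list_prod_mem fun g hg => ?_) (Γ.pos_mem Q hq)
    obtain ⟨j, hj, rfl⟩ := List.mem_map.1 hg
    exact Submonoid.subset_closure ⟨_, Γ.mem_up.2 (by rwa [D.mem_L.1 (List.mem_of_mem_erase hj)]), rfl⟩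
  obtain ⟨l, hl, e⟩ := Submonoid.exists_list_of_mem_closure h1
  have : Nonempty Γ.G.I := ⟨Γ.ι i⟩
  choose! c hc using hl
  refine ⟨l.map c, by simpa using fun g hg => (hc g hg).1, ?_⟩
  rw [List.map_map, List.map_congr_left (f := (fun j => (Q.T j)⁻¹) ∘ c) (g := id) fun g hg => (hc g hg).2, List.map_id, e,
    mul_inv_rev, map_mul, map_inv _ (σ M i.1), ρ_σ, sg_inv_split, h0.eq, mul_assoc]

theorem alw2 {T : Finset S} {s t : S} (hs : s ∈ T) (ht : t ∈ T) (hst : s ≠ t) (h0 : M s t ≠ 0) {m : ℤ} {x : Q.X}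
    (h1 : Γ.G.Le Q.h (Γ.up T) m (Γ.sg Q s x)) (h2 : Γ.G.Le Q.h (Γ.up T) m (Γ.sg Q t x)) {k : ℕ} (hk : k ≤ M s t) :
    Γ.G.Le Q.h (Γ.up T) m (Γ.ρ Q (alt M s t k) x) := by
  have key : ∀ ω : List S, M.toCoxeterSystem.IsReduced ω → (∀ u ∈ ω, u ∈ ({s, t} : Set S)) →
      Γ.G.Le Q.h (Γ.up T) m ((ω.map (Γ.sg Q)).prod x) := fun ω hω hm => by
    have := Γ.alw Q (L := {i | i.1 ∈ ({s, t} : Set S)}) (U := Γ.up T) ?_ ?_ (Γ.le_of_sg Q hs h1) ?_ _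
      (wordProd_mem_par D.cs (ω := D.wd ω) fun i hi => hm _ ((mem_wd D).1 hi))
    · rwa [lft_wordProd _ (Γ.braid_t Q) (red D ω hω), D.prod_wd] at this
    · rintro ⟨u, a⟩ (rfl | rfl) ⟨u', a'⟩ (rfl | rfl)
      · simp [D.diag]
      · exact D.le1 _ _ h0
      · exact D.le1 _ _ (by rwa [M.symmetric])
      · simp [D.diag]
    · rintro ⟨u, a⟩ (rfl | rfl) <;> exact Γ.mem_up.2 ‹_›
    · rintro ⟨u, a⟩ (rfl | rfl)
      exacts [Γ.alw_of_sg Q hs h1, Γ.alw_of_sg Q ht h2]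
  have e : Γ.ρ Q (alt M s t k) = altP (Γ.sg Q s) (Γ.sg Q t) k := by
    rw [alt, artinAltWord_eq, map_altP, map_altP, ← ρ_σ, ← ρ_σ]; rfl
  have k1 := key _ (isReduced_alt _ hst k fun _ => hk) (alt_mem s t k)
  have k2 := key _ (isReduced_alt _ hst.symm k fun _ => by rwa [M.symmetric]) (Set.pair_comm t s ▸ alt_mem t s k)
  rw [prod_alt] at k1 k2
  rw [e]
  split_ifs at k1 k2
  exacts [k1, k2]

end Fr

end Crest.Agent.R175.Unf
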