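/-
R175/Unf/Dat: existence of the unfolding datum and of its framed graph.
-/
import Crest.Agent.R175.Unf.Defs

set_option autoImplicit false
set_option linter.unusedSectionVars false

open Finset Crest.GroupTheory

noncomputable section

namespace Crest.Agent.R175.Unf

open Crest.Agent.R175.P Crest.Agent.R175.Cox

variable {S : Type} [Fintype S] [DecidableEq S]

/-- unfolding data for a finite set of labels -/
structure DatL (A : Finset ℕ) where
  F : Type
  [fF : Fintype F]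
  [dF : DecidableEq F]
  [nF : Nonempty F]
  d : F → ℝ
  d_pos : ∀ a, 0 < d a
  n : ℕ → F → F → ℕ
  symm : ∀ m i j, n m i j = n m j i
  le2 : ∀ m i j, n m i j ≤ 2
  le1 : ∀ m i j, m ≠ 0 → n m i j ≤ 1
  eig : ∀ m ∈ A, m ≠ 1 → ∀ a, ∑ b, (n m a b : ℝ) * d b = 2 * Real.cos (Real.pi / (m : ℝ)) * d a

attribute [instance] DatL.fF DatL.dF DatL.nF

theorem dat_path (k p : ℕ) (hp : p < k + 1) (θ : ℝ) (hθ : ((k : ℝ) + 2) * θ = Real.pi) :
    ∑ q ∈ range (k + 1), (((if q + 1 = p then 1 else 0) + (if p + 1 = q then 1 else 0) : ℕ) : ℝ) *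
      Real.sin (((q : ℝ) + 1) * θ) = 2 * Real.cos θ * Real.sin (((p : ℝ) + 1) * θ) := by
  have h1 : ∑ q ∈ range (k + 1), (if q + 1 = p then Real.sin (((q : ℝ) + 1) * θ) else 0) = Real.sin (p * θ) := by
    rcases p with _ | p
    · simp
    · simp only [add_left_inj, sum_ite_eq', mem_range, if_pos (show p < k + 1 by omega)]
      push_cast
      rfl
  have h2 : ∑ q ∈ range (k + 1), (if p + 1 = q then Real.sin (((q : ℝ) + 1) * θ) else 0) =
      Real.sin (((p : ℝ) + 2) * θ) := by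
    simp only [sum_ite_eq, mem_range]
    split_ifs with h
    · push_cast
      ring_nf
    · obtain rfl : p = k := by omega
      rw [hθ, Real.sin_pi]
  push_cast
  simp only [add_mul _ _ (Real.sin _), ite_mul, one_mul, zero_mul, sum_add_distrib, h1, h2]
  rw [show (p : ℝ) * θ = (p + 1) * θ - θ by ring, show ((p : ℝ) + 2) * θ = (p + 1) * θ + θ by ring, Real.sin_sub,
    Real.sin_add]
  ring

theorem datL_one (m₀ : ℕ) : Nonempty (DatL {m₀}) := by
  rcases m₀ with _ | _ | k
  · exact ⟨⟨Unit, fun _ => 1, fun _ => one_pos, fun m _ _ => if m = 0 then 2 else 0, fun _ _ _ => rfl,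
      fun _ _ _ => by split_ifs <;> omega, fun _ _ _ h => by simp [h], fun m hm _ _ => by simp [mem_singleton.1 hm]⟩⟩
  · exact ⟨⟨Unit, fun _ => 1, fun _ => one_pos, fun _ _ _ => 0, fun _ _ _ => rfl, fun _ _ _ => by omega,
      fun _ _ _ _ => by omega, fun m hm h => (h (mem_singleton.1 hm)).elim⟩⟩
  · have h0 : (0 : ℝ) < (k : ℝ) + 2 := by positivity
    refine ⟨⟨Fin (k + 1), fun p => Real.sin ((((p : ℕ) : ℝ) + 1) * (Real.pi / (k + 2))), fun p => ?_,
      fun _ p q => (if (q : ℕ) + 1 = p then 1 else 0) + (if (p : ℕ) + 1 = q then 1 else 0), fun _ _ _ => add_comm _ _,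
      fun _ _ _ => by split_ifs <;> omega, fun _ _ _ _ => by split_ifs <;> omega, fun m hm _ p => ?_⟩⟩
    · refine Real.sin_pos_of_pos_of_lt_pi (by have := Real.pi_pos; positivity) ?_
      have h1 : ((p : ℕ) : ℝ) + 1 < k + 2 := by
        have : (p : ℕ) + 1 < k + 2 := by omega
        exact_mod_cast this
      rw [← mul_div_assoc, div_lt_iff₀ h0, mul_comm]
      exact mul_lt_mul_of_pos_left h1 Real.pi_pos
    · rw [mem_singleton.1 hm, show ((k + 1 + 1 : ℕ) : ℝ) = k + 2 by push_cast; ring,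
        ← dat_path k p p.2 _ (mul_div_cancel₀ _ h0.ne'), ← Fin.sum_univ_eq_sum_range
          fun q => (((if q + 1 = p then 1 else 0) + (if p + 1 = q then 1 else 0) : ℕ) : ℝ) *
            Real.sin (((q : ℝ) + 1) * (Real.pi / (k + 2)))]

theorem datL (A : Finset ℕ) : Nonempty (DatL A) := by
  induction A using Finset.induction_on with
  | empty => exact ⟨⟨Unit, fun _ => 1, fun _ => one_pos, fun _ _ _ => 0, fun _ _ _ => rfl, fun _ _ _ => by omega,
      fun _ _ _ _ => by omega, fun m hm => by simp at hm⟩⟩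
  | insert m₀ A _ ih =>
    obtain ⟨D⟩ := ih
    obtain ⟨D₀⟩ := datL_one m₀
    refine ⟨⟨D.F × D₀.F, fun x => D.d x.1 * D₀.d x.2, fun x => mul_pos (D.d_pos _) (D₀.d_pos _),
      fun m x y => if m = m₀ then (if x.1 = y.1 then D₀.n m x.2 y.2 else 0) else if x.2 = y.2 then D.n m x.1 y.1 else 0,
      fun m x y => by simp only [eq_comm (a := x.1), eq_comm (a := x.2), D.symm m x.1, D₀.symm m x.2],
      fun m x y => ?_, fun m x y hm => ?_, fun m hm h1 x => ?_⟩⟩
    · split_ifs
      exacts [D₀.le2 _ _ _, by omega, D.le2 _ _ _, by omega]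
    · split_ifs
      exacts [D₀.le1 _ _ _ hm, by omega, D.le1 _ _ _ hm, by omega]
    · by_cases h : m = m₀
      · have := D₀.eig m (mem_singleton.2 h) h1 x.2
        simp only [if_pos h, Fintype.sum_prod_type, Nat.cast_ite, Nat.cast_zero, ite_mul, zero_mul, sum_ite_irrel,
          sum_const_zero, sum_ite_eq, mem_univ, if_true, mul_left_comm _ (D.d x.1), ← mul_sum, this]
      · have := D.eig m ((mem_insert.1 hm).resolve_left h) h1 x.1
        simp only [if_neg h, Fintype.sum_prod_type, Nat.cast_ite, Nat.cast_zero, ite_mul, zero_mul, sum_ite_eq, mem_univ,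
          if_true, ← mul_assoc, ← sum_mul, this]

/-- Recipe.  Induct on a finset `A` of labels: there are `F` (finite, nonempty), `d > 0`, `n : ℕ → F → F → ℕ`
(symmetric, `≤ 2`, `≤ 1` for `m ≠ 0`) with `∑ y, n m x y * d y = 2 * cos (π / m) * d x` for `m ∈ A`, `m ≠ 1`
(bundle this in a structure).  One label `m₀`: `m₀ = 0`: `Unit`, multiplicity 2; `m₀ = 1`: nothing to prove;
`m₀ = k + 2`: `Fin (k + 1)`, `d p = sin ((p + 1) * (π / m₀))`, multiplicity
`(if q + 1 = p then 1 else 0) + (if p + 1 = q then 1 else 0)` (`sin (pθ) + sin ((p+2)θ) = 2 cos θ sin ((p+1)θ)`,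
boundary terms `sin 0 = sin π = 0`).  Step: `F × F₀`, `d (x,p) = d x * d₀ p`,
`n' m (x,p) (y,q) = if m = m₀ then (if x = y then n₀ p q else 0) else (if p = q then n m x y else 0)`.
Finally `A = image of M.M`, `nb (s,a) (t,b) = if s = t then 0 else n (M.M s t) a b`. -/
theorem dat (M : CoxeterMatrix S) : Nonempty (Dat M) := by
  obtain ⟨D⟩ := datL (univ.image fun p : S × S => M.M p.1 p.2)
  refine ⟨⟨D.F, D.d, D.d_pos, fun i j => if i.1 = j.1 then 0 else D.n (M.M i.1 j.1) i.2 j.2, fun i j => ?_,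
    fun i j h => if_pos h, fun i j => ?_, fun i j h => ?_, fun s t a => ?_⟩⟩
  · simp only [eq_comm (a := i.1), D.symm _ i.2, M.isSymm.apply i.1 j.1]
  · split_ifs
    exacts [by omega, D.le2 _ _ _]
  · split_ifs
    exacts [by omega, D.le1 _ _ _ h]
  · unfold adj
    split_ifs with h
    · simp [h]
    · simp only [if_neg h]
      exact D.eig _ (mem_image_of_mem _ (mem_univ (s, t))) (M.off_diagonal s t h) a

/-- the graph with prescribed multiplicities -/
def frG {I : Type} [Fintype I] [DecidableEq I] (ν : I → I → ℕ) (hs : ∀ i j, ν i j = ν j i) (h0 : ∀ i, ν i i = 0)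
    (J : Set I) : Gr where
  I := I
  E := Σ p : I × I, Fin (ν p.1 p.2)
  src e := e.1.1
  bar e := ⟨e.1.swap, e.2.cast (hs _ _)⟩
  bar_bar _ := rfl
  noloop := by
    rintro ⟨⟨i, j⟩, k⟩ (h : j = i)
    subst h
    exact absurd k.2 (by simp [h0])
  J := J

theorem frG_ne {I : Type} [Fintype I] [DecidableEq I] (ν : I → I → ℕ) (hs : ∀ i j, ν i j = ν j i) (h0 : ∀ i, ν i i = 0)
    (J : Set I) (i j : I) : (frG ν hs h0 J).ne i j = ν i j := by
  unfold Gr.ne
  rw [card_filter]
  change ∑ e : (Σ p : I × I, Fin (ν p.1 p.2)), (if e.1.1 = i ∧ e.1.2 = j then 1 else 0) = _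
  rw [Fintype.sum_sigma, sum_eq_single (i, j)]
  · simp
  · rintro ⟨a, b⟩ - h
    exact sum_eq_zero fun _ _ => if_neg fun h' => h (Prod.ext h'.1 h'.2)
  · simp

/-- Recipe.  `I = (S × F) ⊕ (S × F)`, `ν : I → I → ℕ` (`nb` on `inl, inl`; `if i = j then 1 else 0` on mixed pairs;
`0` on `inr, inr`), `E = Σ p : I × I, Fin (ν p.1 p.2)`, `src e = e.1.1`, `bar e = ⟨e.1.swap, e.2.cast _⟩`,
`J = Set.range Sum.inl`; `ne i j = ν i j`; `sum_ne` by `Fintype.sum_sum_type`. -/
theorem fr {M : CoxeterMatrix S} (D : Dat M) : Nonempty (Fr D) := by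
  let ν : (S × D.F) ⊕ (S × D.F) → (S × D.F) ⊕ (S × D.F) → ℕ := fun i j =>
    match i, j with
    | .inl a, .inl b => D.nb a b
    | .inl a, .inr b => if a = b then 1 else 0
    | .inr a, .inl b => if b = a then 1 else 0
    | .inr _, .inr _ => 0
  have hs : ∀ i j, ν i j = ν j i := by
    rintro (a | a) (b | b)
    exacts [D.symm a b, rfl, rfl, rfl]
  have h0 : ∀ i, ν i i = 0 := by
    rintro (a | a)
    exacts [D.diag a a rfl, rfl]
  refine ⟨⟨frG ν hs h0 (Set.range Sum.inl), Sum.inl, Sum.inr, fun i => ⟨i, rfl⟩, ?_, Sum.inl_injective, Sum.inr_injective,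
    ?_, fun i j => frG_ne ν hs h0 _ _ _, fun i j => frG_ne ν hs h0 _ _ _, fun i φ => ?_⟩⟩
  · rintro i ⟨j, hj⟩
    cases hj
  · rintro (a | a)
    exacts [Or.inl ⟨a, rfl⟩, Or.inr ⟨a, rfl⟩]
  · refine (sum_congr rfl fun j _ => by rw [frG_ne]).trans ((Fintype.sum_sum_type _).trans ?_)
    simp [ν]

end Crest.Agent.R175.Unf
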