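/-
R175/Unf/Term: termination for the unfolded generators.
-/
import Crest.Agent.R175.Unf.Defs

set_option autoImplicit false
set_option linter.unusedSectionVars false

open Finset Crest.GroupTheory

noncomputable section

namespace Crest.Agent.R175.Unf

open Crest.Agent.R175.P Crest.Agent.R175.Cox

/-- Recipe.  Refine to single moves: `x' k = (((l (k / N)).drop (N - k % N)).map Q.T).prod (x (k / N))`,
`i k = (l (k / N))[N - 1 - k % N]`; `x' k` is obtained from `x (k / N + 1)` by down moves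
(`List.take_append_drop`, `inv_prod_mem_Dn`, `dn_le`), `x' (q * N) = x q`; apply `Q.term`. -/
theorem term_list {G : Gr} (Q : SL G) {U : Set G.I} (hU : U ⊆ G.J) {g : Equiv.Perm Q.X} (hg : G.Gar Q.T U g)
    (m : ℤ) (x : ℕ → Q.X) (l : ℕ → List G.I) (N : ℕ) (hN : 0 < N) (hlen : ∀ k, (l k).length = N)
    (hred : Q.Red (x 0)) (hl : ∀ k, ∀ i ∈ l k, i ∈ U) (hx : ∀ k, x (k + 1) = ((l k).map Q.T).prod (x k))
    (hle : ∀ k, G.Le Q.h U m (x k)) (hinf : ∀ j ∈ U, ∀ k, ∃ k', k ≤ k' ∧ j ∈ l k') :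
    ∃ k₀, ∀ k, k₀ ≤ k → x (k + 1) = x k := by
  let d : G.I := (l 0)[0]'(by rw [hlen]; exact hN)
  let y : ℕ → ℕ → Q.X := fun q r => (((l q).drop (N - r)).map Q.T).prod (x q)
  have y0 : ∀ q, y q 0 = x q := fun q => by
    simp only [y, Nat.sub_zero, List.drop_of_length_le (hlen q).le, List.map_nil, List.prod_nil, Equiv.Perm.one_apply]
  have yN : ∀ q, y q N = x (q + 1) := fun q => by simp only [y, Nat.sub_self, List.drop_zero, hx]
  have ys : ∀ q r, r < N → y q (r + 1) = Q.T ((l q).getD (N - 1 - r) d) (y q r) := fun q r hr => by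
    have h1 : N - (r + 1) < (l q).length := by rw [hlen]; omega
    have h2 : N - 1 - r = N - (r + 1) := by omega
    have h3 : N - (r + 1) + 1 = N - r := by omega
    simp only [y]
    rw [List.drop_eq_getElem_cons h1, List.map_cons, List.prod_cons, Equiv.Perm.mul_apply, h2, List.getD_eq_getElem _ _ h1, h3]
  have yle : ∀ q r, G.Le Q.h U m (y q r) := fun q r => by
    have e : y q r = ((((l q).take (N - r)).map fun a => Q.T (id a)).prod)⁻¹ (x (q + 1)) := by
      rw [Equiv.Perm.eq_inv_iff_eq, hx]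
      conv_rhs => rw [← List.take_append_drop (N - r) (l q), List.map_append, List.prod_append, Equiv.Perm.mul_apply]
      rfl
    rw [e]
    exact dn_le Q hU (inv_prod_mem_Dn Q id _ fun a ha => hl q a (List.mem_of_mem_take ha)) _ (hle _)
  have dm : ∀ q r, r < N → (N * q + r) / N = q ∧ (N * q + r) % N = r := fun q r hr =>
    (Nat.div_mod_unique hN).2 ⟨add_comm _ _, hr⟩
  obtain ⟨k₀, hk₀⟩ := Q.term U hU g hg m (fun k => y (k / N) (k % N)) (fun k => (l (k / N)).getD (N - 1 - k % N) d)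
    (by simpa only [Nat.zero_div, Nat.zero_mod, y0] using hred)
    (fun k => by
      have h1 : N - 1 - k % N < (l (k / N)).length := by rw [hlen]; omega
      rw [List.getD_eq_getElem _ _ h1]
      exact hl _ _ (List.getElem_mem h1))
    (fun k => by
      have hr := Nat.mod_lt k hN
      rw [← ys _ _ hr]
      have e := Nat.div_add_mod k N
      rcases (Nat.succ_le_of_lt hr).eq_or_lt with h | h
      · obtain ⟨h1, h2⟩ := dm (k / N + 1) 0 hN
        have e' : N * (k / N + 1) + 0 = k + 1 := by rw [mul_add]; omega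
        rw [e'] at h1 h2
        have h' : k % N + 1 = N := h
        rw [h1, h2, h', y0, yN]
      · obtain ⟨h1, h2⟩ := dm (k / N) (k % N + 1) h
        have e' : N * (k / N) + (k % N + 1) = k + 1 := by omega
        rw [e'] at h1 h2
        rw [h1, h2])
    (fun k => yle _ _)
    (fun j hj k => by
      obtain ⟨q, hq, hjq⟩ := hinf j hj k
      obtain ⟨t, ht, rfl⟩ := List.getElem_of_mem hjq
      have ht' : t < N := hlen q ▸ ht
      obtain ⟨h1, h2⟩ := dm q (N - 1 - t) (by omega)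
      refine ⟨N * q + (N - 1 - t), hq.trans ((Nat.le_mul_of_pos_left q hN).trans (Nat.le_add_right _ _)), ?_⟩
      rw [h1, h2, show N - 1 - (N - 1 - t) = t by omega, List.getD_eq_getElem _ _ ht])
  have hc : ∀ k, k₀ ≤ k → y (k / N) (k % N) = y (k₀ / N) (k₀ % N) := fun k hk => by
    induction k, hk using Nat.le_induction with
    | base => rfl
    | succ k hk ih => exact (hk₀ k hk).trans ih
  have hq : ∀ q, k₀ ≤ q → x q = y (k₀ / N) (k₀ % N) := fun q h => by
    have := hc (N * q + 0) (h.trans (Nat.le_mul_of_pos_left q hN))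
    rwa [(dm q 0 hN).1, (dm q 0 hN).2, y0] at this
  exact ⟨k₀, fun k hk => (hq _ (hk.trans (Nat.le_succ k))).trans (hq k hk).symm⟩

variable {S : Type} [Fintype S] [DecidableEq S] {M : CoxeterMatrix S} {D : Dat M} (Γ : Fr D) (Q : SL Γ.G)

/-- Recipe.  Otherwise (`wellFounded_iff_isEmpty_descending_chain` or similar) there is an infinite chain
`x (k+1) = sg (s k) (x k) ≠ x k`.  `T'` = the letters occurring infinitely often; from some `k₀` on only letters of
`T'` occur; apply `term_list` to the shifted chain with `U = Γ.up T'`, `l k = (D.L (s k)).map Γ.ι`,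
`N = Fintype.card D.F` (`le_mono`, `Fr.up_mono`, `Dat.mem_L`, `Dat.length_L`). -/
theorem term_wf (T : Finset S) (hG : ∀ T' ⊆ T, ∃ g, Γ.G.Gar Q.T (Γ.up T') g) (m : ℤ) :
    WellFounded fun y x : {x // Q.Red x} => Γ.G.Le Q.h (Γ.up T) m x.1 ∧ Γ.G.Le Q.h (Γ.up T) m y.1 ∧ y ≠ x ∧
      ∃ s ∈ T, y.1 = Γ.sg Q s x.1 := by
  classical
  refine wellFounded_iff_isEmpty_descending_chain.2 ⟨fun ⟨f, hf⟩ => ?_⟩
  choose s hsT hs using fun n => (hf n).2.2.2
  have hsub : (T.filter fun t => ∃ᶠ n in Filter.atTop, s n = t) ⊆ T := filter_subset _ _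
  obtain ⟨g, hg⟩ := hG _ hsub
  have hev : ∀ᶠ n in Filter.atTop, ∀ t, ¬ (∃ᶠ n in Filter.atTop, s n = t) → s n ≠ t :=
    Filter.eventually_all.2 fun t => by
      by_cases h : ∃ᶠ n in Filter.atTop, s n = t
      · exact Filter.Eventually.of_forall fun n h' => absurd h h'
      · exact (Filter.not_frequently.1 h).mono fun n hn _ => hn
  obtain ⟨k₀, hk₀⟩ := Filter.eventually_atTop.1 hev
  obtain ⟨k₁, hk₁⟩ := term_list Q (Γ.up_sub _) hg m (fun k => (f (k₀ + k)).1) (fun k => (D.L (s (k₀ + k))).map Γ.ι)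
    (Fintype.card D.F) Fintype.card_pos (fun k => by rw [List.length_map, D.length_L]) (f _).2
    (fun k i hi => by
      obtain ⟨a, ha, rfl⟩ := List.mem_map.1 hi
      rw [Γ.mem_up, D.mem_L.1 ha, mem_filter]
      exact ⟨hsT _, by_contra fun h => hk₀ _ (Nat.le_add_right k₀ k) _ h rfl⟩)
    (fun k => by rw [List.map_map]; exact hs (k₀ + k))
    (fun k => le_mono Q (Γ.up_mono hsub) (hf _).1)
    (fun j hj k => by
      obtain ⟨a, ha, rfl⟩ := hj
      obtain ⟨n, hn, e⟩ := Filter.frequently_atTop.1 (mem_filter.1 ha).2 (k₀ + k)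
      refine ⟨n - k₀, by omega, List.mem_map_of_mem (D.mem_L.2 ?_)⟩
      rw [show k₀ + (n - k₀) = n by omega, e])
  exact (hf (k₀ + k₁)).2.2.1 (Subtype.ext (hk₁ k₁ le_rfl))

end Crest.Agent.R175.Unf
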