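/-
R175/Unf/Main: block UNF of row 175.
-/
import Crest.Agent.R175.Unf.Dat
import Crest.Agent.R175.Unf.Act
import Crest.Agent.R175.Unf.Term

set_option autoImplicit false
set_option linter.unusedSectionVars false

open Finset Crest.GroupTheory

noncomputable section

namespace Crest.Agent.R175.Unf

open Crest.Agent.R175.P Crest.Agent.R175.Cox

variable {S : Type} [Fintype S] [DecidableEq S] {M : CoxeterMatrix S}

theorem adj_symm (s t : S) : adj M s t = adj M t s := by simp only [adj, M.symmetric s t, eq_comm]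

namespace Dat
variable (D : Dat M)

/-- weighted sums -/
def W (k : D.F → ℕ) : ℝ := ∑ a, D.d a * k a

theorem W_nonneg (k : D.F → ℕ) : 0 ≤ D.W k :=
  Finset.sum_nonneg fun a _ => mul_nonneg (D.d_pos a).le (Nat.cast_nonneg _)

theorem W_le {k k' : D.F → ℕ} (h : ∀ a, k a ≤ k' a) : D.W k ≤ D.W k' :=
  Finset.sum_le_sum fun a _ => mul_le_mul_of_nonneg_left (Nat.cast_le.2 (h a)) (D.d_pos a).le

theorem W_inj {k k' : D.F → ℕ} (h : ∀ a, k a ≤ k' a) (e : D.W k = D.W k') (a : D.F) : k a = k' a := by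
  have := (Finset.sum_eq_sum_iff_of_le fun a _ =>
    mul_le_mul_of_nonneg_left (Nat.cast_le.2 (h a)) (D.d_pos a).le).1 e a (mem_univ a)
  exact Nat.cast_injective (mul_left_cancel₀ (D.d_pos a).ne' this)

theorem W_eq_zero {k : D.F → ℕ} : D.W k = 0 ↔ ∀ a, k a = 0 :=
  ⟨fun h a => (D.W_inj (k := fun _ => 0) (fun _ => Nat.zero_le _) (by rw [h]; simp [W]) a).symm,
    fun h => by simp [W, h]⟩

theorem W_add (k k' : D.F → ℕ) : D.W (fun a => k a + k' a) = D.W k + D.W k' := by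
  simp [W, mul_add, Finset.sum_add_distrib]

theorem W_disc (R : ℝ) : (Set.range D.W ∩ Set.Iic R).Finite := by
  refine ((Set.Finite.pi' fun a => Set.finite_Iic ⌈R / D.d a⌉₊).image D.W).subset ?_
  rintro _ ⟨⟨k, rfl⟩, hk⟩
  refine ⟨k, fun a => Nat.cast_le.1 (le_trans ?_ (Nat.le_ceil _)), rfl⟩
  rw [le_div_iff₀' (D.d_pos a)]
  exact (Finset.single_le_sum (f := fun a => D.d a * k a)
    (fun a _ => mul_nonneg (D.d_pos a).le (Nat.cast_nonneg _)) (mem_univ a)).trans hk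

theorem W_nb (s : S) (φ : S × D.F → ℕ) :
    D.W (fun a => ∑ j, D.nb (s, a) j * φ j) = ∑ t, adj M s t * D.W fun b => φ (t, b) := by
  simp only [W, Fintype.sum_prod_type, Finset.mul_sum]
  push_cast
  simp only [Finset.mul_sum]
  rw [Finset.sum_comm]
  refine Finset.sum_congr rfl fun t _ => ?_
  rw [Finset.sum_comm]
  refine Finset.sum_congr rfl fun b _ => ?_
  rw [← mul_assoc, adj_symm, ← D.eig, Finset.sum_mul]
  exact Finset.sum_congr rfl fun a _ => by rw [D.symm]; ring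

theorem adj_ne {i j : S × D.F} (h : D.nb i j ≠ 0) : adj M i.1 j.1 ≠ 0 := fun h0 => by
  have e := D.eig i.1 j.1 i.2
  rw [h0, zero_mul] at e
  exact h (D.W_eq_zero.1 (show D.W (fun b => D.nb i (j.1, b)) = 0 by simpa [W, mul_comm] using e) j.2)

theorem exists_nb {s t : S} (h : adj M s t ≠ 0) (b : D.F) : ∃ a, D.nb (s, a) (t, b) ≠ 0 := by
  by_contra h'
  push Not at h'
  have e := D.eig t s b
  simp only [D.symm (t, b), h', adj_symm t s] at e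
  exact mul_ne_zero h (D.d_pos b).ne' (by simpa using e.symm)

end Dat

namespace Fr
variable {D : Dat M} (Γ : Fr D) (Q : SL Γ.G)

/-- weighted dimensions -/
def v (x : {x // Q.Red x}) (n : ℤ) (s : S) : ℝ := D.W fun a => Q.h x.1 n (Γ.ι (s, a))

/-- weighted dimensions of the framing -/
def f (x : {x // Q.Red x}) (n : ℤ) (s : S) : ℝ := D.W fun a => Q.h x.1 n (Γ.κ (s, a))

theorem W_B (x : {x // Q.Red x}) (n : ℤ) (s : S) :
    D.W (fun a => ∑ j, Γ.G.ne (Γ.ι (s, a)) j * Q.h x.1 n j) = Γ.f Q x n s + ∑ t, adj M s t * Γ.v Q x n t := by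
  simp only [Γ.sum_ne]
  rw [D.W_add, D.W_nb, add_comm]; rfl

theorem nbr {x : {x // Q.Red x}} {n : ℤ} {i : S × D.F} {j : Γ.G.I} (hj : Γ.G.ne (Γ.ι i) j ≠ 0)
    (h1 : Γ.f Q x n i.1 = 0) (h2 : ∀ k, j = Γ.ι k → adj M i.1 k.1 ≠ 0 → Γ.v Q x n k.1 = 0) : Q.h x.1 n j = 0 := by
  rcases Γ.cov j with ⟨k, rfl⟩ | ⟨k, rfl⟩
  · exact D.W_eq_zero.1 (h2 k rfl (D.adj_ne (by rwa [Γ.ne_ι] at hj))) k.2
  · obtain rfl : i = k := by simpa [Γ.ne_κ] using hj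
    exact D.W_eq_zero.1 h1 i.2

theorem leP {T : Finset S} {m : ℤ} {x : {x // Q.Red x}} :
    LeP M (Γ.v Q) (Γ.f Q) T m x ↔ Γ.G.Le Q.h (Γ.up T) m x.1 := by
  constructor
  · rintro h n hn _ ⟨i, hi, rfl⟩
    obtain ⟨h1, h2, h3⟩ := h n hn i.1 hi
    exact ⟨D.W_eq_zero.1 h2 i.2, fun j hj => Γ.nbr Q hj h1 fun k _ => h3 k.1⟩
  · intro h n hn u hu
    have H := fun a => h n hn (Γ.ι (u, a)) (Γ.mem_up.2 hu)
    refine ⟨D.W_eq_zero.2 fun a => (H a).2 _ (by simp [Γ.ne_κ]), D.W_eq_zero.2 fun a => (H a).1,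
      fun t ht => D.W_eq_zero.2 fun b => ?_⟩
    obtain ⟨a, ha⟩ := D.exists_nb ht b
    exact (H a).2 _ (by rwa [Γ.ne_ι])

/-- the action on reduced objects -/
instance act : MulAction (ArtinGroup M) {x // Q.Red x} where
  smul g x := ⟨Γ.ρ Q g x.1, (Γ.ρ_inv Q g x.1).1.2 x.2⟩
  one_smul x := Subtype.ext (show Γ.ρ Q 1 x.1 = x.1 by simp)
  mul_smul a b x := Subtype.ext (show Γ.ρ Q (a * b) x.1 = Γ.ρ Q a (Γ.ρ Q b x.1) by simp)

theorem smul_val (g : ArtinGroup M) (x : {x // Q.Red x}) : (g • x).1 = Γ.ρ Q g x.1 := rfl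

theorem σ_val (s : S) (x : {x // Q.Red x}) : (σ M s • x).1 = Γ.sg Q s x.1 := by rw [smul_val, ρ_σ]

theorem σi_val (s : S) (x : {x // Q.Red x}) : ((σ M s)⁻¹ • x).1 = (Γ.sg Q s)⁻¹ x.1 := by rw [smul_val, map_inv, ρ_σ]

theorem v_σi (s : S) (x : {x // Q.Red x}) (n : ℤ) :
    Γ.v Q ((σ M s)⁻¹ • x) n s = D.W fun a => Q.h ((Γ.t Q (s, a))⁻¹ x.1) n (Γ.ι (s, a)) := by
  simp only [v, σi_val, fun a => Γ.h_sgi_at Q (s, a)]

theorem v_le {T : Finset S} {m : ℤ} {x y : {x // Q.Red x}} (hx : Γ.G.Le Q.h (Γ.up T) m x.1)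
    (hy : Γ.G.Le Q.h (Γ.up T) m y.1) (h : Q.sur m x.1 y.1) : ∀ q ∈ Pos M T, ∀ u,
      Γ.v Q (q⁻¹ • y) m u ≤ Γ.v Q (q⁻¹ • x) m u := fun _ hq _ =>
  D.W_le fun _ => Q.sur_le m _ _ (dn_sur Q (Γ.up_sub T) (Γ.pos_mem Q hq) _ _ hx hy h) _

theorem ex_sur {T : Finset S} {t : S} (ht : t ∈ T) {m : ℤ} {x : {x // Q.Red x}}
    (h : Γ.G.Le Q.h (Γ.up T) m (Γ.sg Q t x.1))
    (h1 : 2 * Γ.v Q x m t = Γ.f Q x m t + ∑ u, adj M t u * Γ.v Q x m u)
    (h2 : Γ.v Q ((σ M t)⁻¹ • x) m t = Γ.v Q x m t) : Q.sur m (Γ.sg Q t x.1) x.1 := by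
  have A : ∀ a, Γ.G.Le Q.h {Γ.ι (t, a)} m x.1 := fun a => le_single Q (Γ.mem_up.2 ht) (Γ.le_of_sg Q ht h)
  have B : ∀ a, Γ.G.Le Q.h {Γ.ι (t, a)} m (Γ.t Q (t, a) x.1) := fun a =>
    le_single Q (Γ.mem_up.2 ht) (Γ.alw_of_sg Q (i := (t, a)) ht h)
  have C := D.W_inj (fun a => Q.sur_le m _ _ (Q.fold _ (Γ.ι_mem _) m _ (A a) (B a)) (Γ.ι (t, a)))
    (by rw [← v_σi, h2]; rfl)
  have E := D.W_inj (k' := fun a => Q.h x.1 m (Γ.ι (t, a)) + Q.h x.1 m (Γ.ι (t, a)))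
    (fun a => (Q.down _ (Γ.ι_mem _) m _ (A a)).2.trans (by rw [← C a])) (by rw [W_B, D.W_add, ← h1, two_mul]; rfl)
  refine (Γ.exact_list Q (s := t) ?_ _ (fun i hi => D.mem_L.1 hi) (D.nodup_L t)).1
  rintro ⟨_, a⟩ rfl
  exact ⟨A a, B a, (C a).symm, by rw [two_mul, E a]⟩

theorem base (r : S) : ∃ p : {x // Q.Red x}, (∀ n s, Γ.v Q p n s = 0) ∧ (∀ n s, Γ.f Q p n s ≠ 0 ↔ n = 0 ∧ s = r) ∧
    ∀ s, s ≠ r → σ M s • p = p := by
  obtain ⟨p, h1, h2, h3⟩ := Q.base (Γ.κ '' {i | i.1 = r})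
    (Set.disjoint_left.2 (by rintro _ ⟨i, -, rfl⟩; exact Γ.κ_nmem i))
  refine ⟨⟨p, h1⟩, fun n s => D.W_eq_zero.2 fun a => ?_, fun n s => ?_, fun s hs => Subtype.ext ?_⟩
  · by_contra h
    obtain ⟨-, i, -, e⟩ := (h2 _ _).1 h
    exact Γ.κ_nmem i (by rw [e]; exact Γ.ι_mem _)
  · simp only [f, Ne, D.W_eq_zero, not_forall]
    simp only [← Ne.eq_def, h2, Γ.κ_inj.mem_set_image, Set.mem_setOf_eq, exists_const]
  · rw [σ_val]
    refine List.prod_induction (fun g : Equiv.Perm Q.X => g p = p) (fun a b ha hb => by simp [ha, hb]) rfl ?_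
    intro g hg
    obtain ⟨i, hi, rfl⟩ := List.mem_map.1 hg
    refine h3 _ (Γ.ι_mem i) ?_
    rintro _ ⟨j, hj, rfl⟩
    rw [Γ.ne_κ, if_neg]
    rintro rfl
    exact hs ((D.mem_L.1 hi).symm.trans hj)

/-- the folded model -/
def mdl : Mdl M where
  X := {x // Q.Red x}
  act := Γ.act Q
  v := Γ.v Q
  fr := Γ.f Q
  Λ := Set.range D.W
  disc := D.W_disc
  v_mem _ _ _ := ⟨_, rfl⟩
  v_nonneg _ _ _ := D.W_nonneg _
  fr_nonneg _ _ _ := D.W_nonneg _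
  bdd x := by
    obtain ⟨m, hm⟩ := Q.bdd x.1
    exact ⟨m, fun n hn s => ⟨D.W_eq_zero.2 fun _ => hm n hn _, D.W_eq_zero.2 fun _ => hm n hn _⟩⟩
  fr_smul g x := by
    funext n s
    simp only [f, smul_val, (Γ.ρ_inv Q g x.1).2]
  loc s t h x n := by
    simp only [v, σ_val, fun b => Γ.h_sg_ne Q (s := s) (j := Γ.ι (t, b)) fun a e => h (Prod.mk.inj (Γ.ι_inj e)).1]
  down s m x h := by
    have A := fun a => Q.down _ (Γ.ι_mem (s, a)) m _ (le_single Q (Γ.mem_up.2 (by simp)) ((Γ.leP Q).1 h))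
    simp only [v_σi]
    refine ⟨fun n hn => D.W_eq_zero.2 fun a => (A a).1 n hn, ?_⟩
    rw [← W_B, v, ← D.W_add]
    exact D.W_le fun a => (A a).2
  alw2 T s hs t ht hst h0 m x _ h1 h2 k hk := by
    rw [leP, σ_val] at h1 h2
    exact (Γ.leP Q).2 (Γ.alw2 Q hs ht hst h0 h1 h2 hk)
  fold T s hs m x h := by
    rw [leP, σ_val] at h
    have h1 := Γ.le_of_sg Q hs h
    refine Γ.v_le Q ?_ h1 ?_ <;> rw [σi_val]
    exacts [dn_le Q (Γ.up_sub T) (Γ.sg_inv_mem Q hs) _ h1, Γ.fold_sg Q hs h]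
  exact T t ht m x h h1 h2 := by
    rw [leP] at h
    have h' := h
    rw [σ_val] at h'
    have h3 := Γ.ex_sur Q ht h' h1 h2
    have h4 := Γ.le_of_sg Q ht h'
    refine ⟨Γ.v_le Q h h4 (by rwa [σ_val]), fun u hu _ h5 => ?_⟩
    rw [leP, σ_val] at h5 ⊢
    rw [σ_val] at h5
    have hm : ∀ a, Γ.ι (u, a) ∈ Γ.up T := fun a => Γ.mem_up.2 hu
    exact Γ.le_sg Q h4 fun a => Q.sur_alw _ (Γ.ι_mem _) m _ _ (le_single Q (hm a) h') (le_single Q (hm a) h4) h3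
      (le_single Q (hm a) (Γ.alw_of_sg Q (i := (u, a)) hu h5))
  kill T Δ hΔ n x h h' u hu := by
    refine D.W_eq_zero.2 fun a => Q.kill _ (Γ.up_sub T) _ (Γ.gar Q hΔ) n x.1 ((Γ.leP Q).1 h) ?_ _ (Γ.mem_up.2 hu)
    rintro _ ⟨i, hi, rfl⟩ j hj hne
    exact Γ.nbr Q hne (h' _ hi).1 fun k hk => (h' _ hi).2 _ fun hk' => hj (hk ▸ Γ.mem_up.2 hk')
  term T hT m := by
    refine Subrelation.wf ?_ (term_wf Γ Q T (fun T' h => (hT T' h).elim fun _ h => ⟨_, Γ.gar Q h⟩) m)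
    rintro y x ⟨h1, h2, h3, s, hs, h4⟩
    exact ⟨(Γ.leP Q).1 h1, (Γ.leP Q).1 h2, h3, s, hs, by rw [h4, σ_val]⟩
  P r := (Γ.base Q r).choose
  P_v r := (Γ.base Q r).choose_spec.1
  P_fr r := (Γ.base Q r).choose_spec.2.1
  P_fix r := (Γ.base Q r).choose_spec.2.2

end Fr

end Crest.Agent.R175.Unf

namespace Crest.Agent.R175.P

variable {S : Type} [Fintype S] [DecidableEq S]

theorem mdl (M : CoxeterMatrix S) : S_SL → S_MDL M := fun H => by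
  obtain ⟨D⟩ := Unf.dat M
  obtain ⟨Γ⟩ := Unf.fr D
  obtain ⟨Q⟩ := H Γ.G
  exact ⟨Γ.mdl Q⟩

end Crest.Agent.R175.P
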